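import Vale.Agent.P139.R2.H923.Ev
import Vale.Agent.P139.R2.H959.Dat

/-!
# P139, row R8c: auxiliary lemmas (weights on a finite set of modes, the norm `nw`)
-/

set_option autoImplicit false

open MvPolynomial Finset
open scoped ComplexConjugate

namespace Vale.Agent.P139.BN.R8

open Vale.Agent.P139.A Vale.Agent.P139.A.WA

variable {d : ℕ}

/-! ## Momentum inequalities -/

lemma sm_eq_neg_sum {ι : Type} {mo : ι → Lat d} {j : ℕ} (I : Fin (j + 1) → ι × Bool)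
    (l : Fin (j + 1)) (h : mom mo I = 0) :
    sm mo (I l) = -∑ i : Fin j, sm mo (I (l.succAbove i)) := by
  unfold mom at h
  rw [Fin.sum_univ_succAbove _ l] at h
  exact eq_neg_of_add_eq_zero_left h

lemma even_sm {ι : Type} {mo : ι → Lat d} {M : Type*} {f : Lat d → M} (hf : ∀ n, f (-n) = f n)
    (v : ι × Bool) : f (sm mo v) = f (mo v.1) := by
  unfold sm
  split_ifs
  · rfl
  · exact hf _

lemma W_sum_le {W : Lat d → ℝ} (h1 : ∀ n, 1 ≤ W n) (hm : ∀ a b, W (a + b) ≤ W a * W b)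
    {κ : Type*} {s : Finset κ} (hs : s.Nonempty) (g : κ → Lat d) :
    W (∑ i ∈ s, g i) ≤ ∏ i ∈ s, W (g i) := by
  classical
  induction hs using Finset.Nonempty.cons_induction with
  | singleton a => simp
  | cons a s ha hs ih =>
    rw [Finset.sum_cons, Finset.prod_cons]
    exact (hm _ _).trans (mul_le_mul_of_nonneg_left ih (by linarith [h1 (g a)]))

/-- The momentum inequality for a submultiplicative even weight. -/
theorem W_mom_of {ι : Type} {mo : ι → Lat d} (hmo : ∀ n, mo n ≠ 0) {W : Lat d → ℝ}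
    (h1 : ∀ n, 1 ≤ W n) (he : ∀ n, W (-n) = W n) (hm : ∀ a b, W (a + b) ≤ W a * W b) {j : ℕ}
    (I : Fin (j + 1) → ι × Bool) (l : Fin (j + 1)) (h : mom mo I = 0) :
    W (mo (I l).1) ≤ ∏ i : Fin j, W (mo (I (l.succAbove i)).1) := by
  have h2 := sm_eq_neg_sum I l h
  rcases Nat.eq_zero_or_pos j with rfl | hj
  · exfalso
    rw [Finset.univ_eq_empty, Finset.sum_empty, neg_zero] at h2
    unfold sm at h2
    split_ifs at h2
    · exact hmo _ h2
    · exact hmo _ (neg_eq_zero.1 h2)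
  · have : Nonempty (Fin j) := ⟨⟨0, hj⟩⟩
    calc W (mo (I l).1) = W (sm mo (I l)) := (even_sm he _).symm
      _ = W (∑ i : Fin j, sm mo (I (l.succAbove i))) := by rw [h2, he]
      _ ≤ ∏ i : Fin j, W (sm mo (I (l.succAbove i))) := W_sum_le h1 hm Finset.univ_nonempty _
      _ = ∏ i : Fin j, W (mo (I (l.succAbove i)).1) :=
          Finset.prod_congr rfl fun i _ => even_sm he _

open Vale.Agent.P139.R2P in
lemma eu_zero : eu (0 : Lat d) = 0 := by
  unfold eu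
  rw [sqNorm_zero, Real.sqrt_zero]

open Vale.Agent.P139.R2P in
/-- The momentum inequality for the polynomial weight. -/
theorem pw_mom_of {ι : Type} {mo : ι → Lat d} (hmo : ∀ n, mo n ≠ 0) {q J j : ℕ} (hj : j + 1 ≤ J)
    (I : Fin (j + 1) → ι × Bool) (l : Fin (j + 1)) (h : mom mo I = 0) :
    ∃ i : Fin j, (1 + sqNorm (mo (I l).1)) ^ q ≤
      (J : ℝ) ^ (2 * q) * (1 + sqNorm (mo (I (l.succAbove i)).1)) ^ q := by
  have h2 := sm_eq_neg_sum I l h
  rcases Nat.eq_zero_or_pos j with rfl | hj0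
  · exfalso
    rw [Finset.univ_eq_empty, Finset.sum_empty, neg_zero] at h2
    unfold sm at h2
    split_ifs at h2
    · exact hmo _ h2
    · exact hmo _ (neg_eq_zero.1 h2)
  · have : Nonempty (Fin j) := ⟨⟨0, hj0⟩⟩
    obtain ⟨i, -, hi⟩ := Finset.exists_max_image (univ : Finset (Fin j))
      (fun i => eu (mo (I (l.succAbove i)).1)) Finset.univ_nonempty
    refine ⟨i, ?_⟩
    have h3 : eu (mo (I l).1) ≤ j * eu (mo (I (l.succAbove i)).1) := by
      calc eu (mo (I l).1) = eu (sm mo (I l)) := (even_sm eu_neg _).symm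
        _ = eu (∑ i : Fin j, sm mo (I (l.succAbove i))) := by rw [h2, eu_neg]
        _ ≤ ∑ i : Fin j, eu (sm mo (I (l.succAbove i))) :=
            Finset.le_sum_of_subadditive _ eu_zero.le eu_add_le _ _
        _ = ∑ i : Fin j, eu (mo (I (l.succAbove i)).1) :=
            Finset.sum_congr rfl fun i _ => even_sm eu_neg _
        _ ≤ ∑ _i : Fin j, eu (mo (I (l.succAbove i)).1) :=
            Finset.sum_le_sum fun i' _ => hi i' (Finset.mem_univ _)
        _ = j * eu (mo (I (l.succAbove i)).1) := by simp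
    have hJ : (j : ℝ) ≤ J := by exact_mod_cast (by omega : j ≤ J)
    have hJ1 : (1 : ℝ) ≤ J := by exact_mod_cast (by omega : 1 ≤ J)
    have h4 : 1 + sqNorm (mo (I l).1) ≤ (J : ℝ) ^ 2 * (1 + sqNorm (mo (I (l.succAbove i)).1)) := by
      rw [← eu_sq, ← eu_sq]
      have h5 : eu (mo (I l).1) ≤ J * eu (mo (I (l.succAbove i)).1) :=
        h3.trans (mul_le_mul_of_nonneg_right hJ (eu_nonneg _))
      have h6 := eu_nonneg (mo (I l).1)
      nlinarith [pow_le_pow_left₀ h6 h5 2]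
    have h7 : 0 ≤ 1 + sqNorm (mo (I l).1) := by
      have := sqNorm_nonneg (mo (I l).1)
      linarith
    calc (1 + sqNorm (mo (I l).1)) ^ q ≤ ((J : ℝ) ^ 2 * (1 + sqNorm (mo (I (l.succAbove i)).1))) ^ q :=
          pow_le_pow_left₀ h7 h4 q
      _ = _ := by rw [mul_pow, ← pow_mul]

/-- Summability constant of the polynomial weight. -/
theorem exists_summ (d : ℕ) : ∃ S : ℝ, 1 ≤ S ∧ ∀ q : ℕ, d ≤ q → ∀ B : Finset (Lat d),
    ∑ n ∈ B, (((1 + sqNorm n) ^ q) ^ 2)⁻¹ ≤ S ^ 2 := by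
  have hs := summable_W_inv d
  set Z : ℝ := ∑' n : Lat d, (W (2 * d) n)⁻¹ with hZ
  have hZ0 : 0 ≤ Z := tsum_nonneg fun n => (inv_pos.2 (W_pos n)).le
  refine ⟨1 + 2 ^ d * Z, by have : 0 ≤ 2 ^ d * Z := by positivity
                            linarith, fun q hq B => ?_⟩
  have h1 : ∀ n : Lat d, (((1 + sqNorm n) ^ q) ^ 2)⁻¹ ≤ 2 ^ d * (W (2 * d) n)⁻¹ := by
    intro n
    refine le_trans ?_ (R2P.inv_pow_le n)
    have h2 : (1 : ℝ) ≤ 1 + sqNorm n := by linarith [sqNorm_nonneg n]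
    refine inv_anti₀ (by positivity) ?_
    rw [← pow_mul]
    exact pow_le_pow_right₀ h2 (by omega)
  calc ∑ n ∈ B, (((1 + sqNorm n) ^ q) ^ 2)⁻¹ ≤ ∑ n ∈ B, 2 ^ d * (W (2 * d) n)⁻¹ :=
        Finset.sum_le_sum fun n _ => h1 n
    _ = 2 ^ d * ∑ n ∈ B, (W (2 * d) n)⁻¹ := (Finset.mul_sum _ _ _).symm
    _ ≤ 2 ^ d * Z := by
        refine mul_le_mul_of_nonneg_left ?_ (by positivity)
        exact hs.sum_le_tsum B fun n _ => (inv_pos.2 (W_pos n)).le
    _ ≤ (1 + 2 ^ d * Z) ^ 2 := by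
        have h3 : 0 ≤ 2 ^ d * Z := by positivity
        nlinarith

/-! ## The norm `nw` -/

section Nw

variable {ι : Type} [Fintype ι]

lemma nw_eq_norm {w : ι → ℝ} (hw : ∀ n, 0 ≤ w n) (y : ι × Bool → ℂ) :
    nw w y = ‖(WithLp.toLp 2 (fun v : ι × Bool => (w v.1 : ℂ) * y v) :
      EuclideanSpace ℂ (ι × Bool))‖ := by
  rw [EuclideanSpace.norm_eq]
  unfold nw
  congr 1
  refine Finset.sum_congr rfl fun v _ => ?_
  simp [abs_of_nonneg (hw v.1)]

lemma nw_add_le {w : ι → ℝ} (hw : ∀ n, 0 ≤ w n) (y y' : ι × Bool → ℂ) :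
    nw w (y + y') ≤ nw w y + nw w y' := by
  rw [nw_eq_norm hw, nw_eq_norm hw, nw_eq_norm hw]
  refine le_trans (le_of_eq ?_) (norm_add_le _ _)
  congr 1
  ext v
  simp [mul_add]

lemma nw_zero (w : ι → ℝ) : nw w (0 : ι × Bool → ℂ) = 0 := by
  unfold nw
  simp

lemma nw_sum_le {w : ι → ℝ} (hw : ∀ n, 0 ≤ w n) {κ : Type*} (s : Finset κ)
    (y : κ → ι × Bool → ℂ) : nw w (∑ i ∈ s, y i) ≤ ∑ i ∈ s, nw w (y i) := by
  classical
  induction s using Finset.induction_on with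
  | empty => simp [nw_zero]
  | insert a s ha ih =>
    rw [Finset.sum_insert ha, Finset.sum_insert ha]
    exact (nw_add_le hw _ _).trans (add_le_add_right ih _)

lemma nw_mono {w : ι → ℝ} (hw : ∀ n, 0 ≤ w n) {y y' : ι × Bool → ℂ} (h : ∀ v, ‖y v‖ ≤ ‖y' v‖) :
    nw w y ≤ nw w y' := by
  unfold nw
  refine Real.sqrt_le_sqrt (Finset.sum_le_sum fun v _ => ?_)
  exact pow_le_pow_left₀ (mul_nonneg (hw _) (norm_nonneg _))
    (mul_le_mul_of_nonneg_left (h v) (hw _)) 2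

lemma nw_const_mul {w : ι → ℝ} {a : ℝ} (ha : 0 ≤ a) (y : ι × Bool → ℂ) :
    nw w (fun v => (a : ℂ) * y v) = a * nw w y := by
  unfold nw
  rw [← Real.sqrt_sq ha, ← Real.sqrt_mul (sq_nonneg a), Finset.mul_sum]
  congr 1
  refine Finset.sum_congr rfl fun v _ => ?_
  rw [norm_mul, Complex.norm_real, Real.norm_eq_abs, abs_of_nonneg (Real.sqrt_nonneg _),
    Real.sqrt_sq ha]
  ring

lemma nw_pt_sq (w : ι → ℝ) (z : ι → ℂ) : nw w (pt z) ^ 2 = 2 * ∑ n, (w n * ‖z n‖) ^ 2 := by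
  unfold nw
  rw [Real.sq_sqrt (Finset.sum_nonneg fun _ _ => sq_nonneg _), Fintype.sum_prod_type, Finset.mul_sum]
  refine Finset.sum_congr rfl fun n _ => ?_
  rw [Fintype.sum_bool]
  simp [pt]
  ring

/-- The vector of the values at `(n, false)`. -/
lemma nw_pt_le {w : ι → ℝ} (x : ι × Bool → ℂ) :
    nw w (pt fun n => x (n, false)) ≤ 2 * nw w x := by
  have h1 : nw w (pt fun n => x (n, false)) ^ 2 ≤ (2 * nw w x) ^ 2 := by
    rw [nw_pt_sq, mul_pow]
    unfold nw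
    rw [Real.sq_sqrt (Finset.sum_nonneg fun _ _ => sq_nonneg _), Fintype.sum_prod_type]
    have h2 : ∑ n, (w n * ‖x (n, false)‖) ^ 2 ≤ ∑ n, ∑ b : Bool, (w n * ‖x (n, b)‖) ^ 2 := by
      refine Finset.sum_le_sum fun n _ => ?_
      rw [Fintype.sum_bool]
      nlinarith [sq_nonneg (w n * ‖x (n, true)‖)]
    have h3 : 0 ≤ ∑ n, (w n * ‖x (n, false)‖) ^ 2 := Finset.sum_nonneg fun _ _ => sq_nonneg _
    nlinarith
  have h2 : 0 ≤ 2 * nw w x := by
    have : 0 ≤ nw w x := Real.sqrt_nonneg _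
    linarith
  exact le_of_sq_le_sq h1 h2

end Nw

/-! ## From `D0` to `DW` -/

lemma one_le_DW {ι : Type} {W pw : ι → ℝ} (hW : ∀ n, 1 ≤ W n) (hp : ∀ n, 1 ≤ pw n) {j : ℕ}
    (hj : 2 ≤ j) (I : Fin j → ι × Bool) : 1 ≤ DW W pw j I := by
  unfold DW
  have h1 : 1 ≤ ∏ l : Fin j, W (I l).1 := by
    calc (1 : ℝ) = ∏ _l : Fin j, (1 : ℝ) := by simp
      _ ≤ _ := Finset.prod_le_prod (fun _ _ => zero_le_one) fun l _ => hW _
  have h0 : ∀ l l' : Fin j, (0 : ℝ) ≤ pw (I l).1 * pw (I l').1 := fun l l' =>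
    mul_nonneg (by linarith [hp (I l).1]) (by linarith [hp (I l').1])
  have h2 : 1 ≤ ∑ l : Fin j, ∑ l' ∈ univ.erase l, pw (I l).1 * pw (I l').1 := by
    let a : Fin j := ⟨0, by omega⟩
    let b : Fin j := ⟨1, by omega⟩
    have hab : b ∈ univ.erase a := by
      rw [Finset.mem_erase]
      exact ⟨by simp [a, b], Finset.mem_univ _⟩
    calc (1 : ℝ) ≤ pw (I a).1 * pw (I b).1 := one_le_mul_of_one_le_of_one_le (hp _) (hp _)
      _ ≤ ∑ l' ∈ univ.erase a, pw (I a).1 * pw (I l').1 :=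
          Finset.single_le_sum (f := fun l' => pw (I a).1 * pw (I l').1) (fun l' _ => h0 a l') hab
      _ ≤ _ := Finset.single_le_sum
          (f := fun l => ∑ l' ∈ univ.erase l, pw (I l).1 * pw (I l').1)
          (fun l _ => Finset.sum_nonneg fun l' _ => h0 l l') (Finset.mem_univ a)
  exact one_le_mul_of_one_le_of_one_le h1 h2

lemma Cls_DW_of_D0 {ι : Type} [Fintype ι] {mo : ι → Lat d} {W pw : ι → ℝ} (hW : ∀ n, 1 ≤ W n)
    (hp : ∀ n, 1 ≤ pw n) {j : ℕ} (hj : 2 ≤ j) {F : ℝ} (hF : 0 ≤ F) {P : Pl ι}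
    (h : Cls mo D0 j F P) : Cls mo (DW W pw) j F P := by
  obtain ⟨a, ha, hm, hP⟩ := h
  refine ⟨a, fun I => (ha I).trans ?_, hm, hP⟩
  refine mul_le_mul_of_nonneg_left ?_ hF
  exact one_le_DW hW hp hj I

end Vale.Agent.P139.BN.R8
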