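import Vale.Agent.P139.R2.H556.Ham
import Vale.Agent.P139.R2.H36.RemA

/-!
# P139, row R8c: the bound of the remainder
-/

set_option autoImplicit false

open MvPolynomial Finset
open scoped ComplexConjugate

namespace Vale.Agent.P139.BN.R8

open Vale.Agent.P139.A Vale.Agent.P139.A.WA R7
open Vale.Agent.P139.R2.H923 (evThm vfThm)

variable {d : ℕ}

section Nw

variable {ι : Type} [Fintype ι]

lemma nw_nonneg' (w : ι → ℝ) (y : ι × Bool → ℂ) : 0 ≤ nw w y := Real.sqrt_nonneg _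

lemma nw_pt_mul (w : ι → ℝ) (a : ℂ) (g : ι → ℂ) :
    nw w (pt fun n => a * g n) = ‖a‖ * nw w (pt g) := by
  have h : nw w (pt fun n => a * g n) ^ 2 = (‖a‖ * nw w (pt g)) ^ 2 := by
    rw [mul_pow, nw_pt_sq, nw_pt_sq, Finset.mul_sum, Finset.mul_sum, Finset.mul_sum]
    refine Finset.sum_congr rfl fun n _ => ?_
    rw [norm_mul]
    ring
  exact (sq_eq_sq₀ (nw_nonneg' _ _) (mul_nonneg (norm_nonneg _) (nw_nonneg' _ _))).1 h

omit [Fintype ι] in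
lemma pt_add (g g' : ι → ℂ) : pt (fun n => g n + g' n) = pt g + pt g' := by
  funext v
  rcases v with ⟨n, b⟩
  cases b <;> simp [pt]

omit [Fintype ι] in
lemma pt_sum {κ : Type*} (s : Finset κ) (g : κ → ι → ℂ) :
    pt (fun n => ∑ i ∈ s, g i n) = ∑ i ∈ s, pt (g i) := by
  funext v
  rcases v with ⟨n, b⟩
  cases b <;> simp [pt, Finset.sum_apply]

lemma nw_pt_add_le {w : ι → ℝ} (hw : ∀ n, 0 ≤ w n) (g g' : ι → ℂ) :
    nw w (pt fun n => g n + g' n) ≤ nw w (pt g) + nw w (pt g') := by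
  rw [pt_add]
  exact nw_add_le hw _ _

lemma nw_pt_sum_le {w : ι → ℝ} (hw : ∀ n, 0 ≤ w n) {κ : Type*} (s : Finset κ)
    (g : κ → ι → ℂ) :
    nw w (pt fun n => ∑ i ∈ s, g i n) ≤ ∑ i ∈ s, nw w (pt (g i)) := by
  rw [pt_sum]
  exact nw_sum_le hw _ _

end Nw

/-- The bound of the combinatorial prefactor. -/
lemma abs_cf_le (m a b : ℕ) : ‖(cf m a b : ℂ)‖ ≤ 4 ^ (m + 1) := by
  rw [Complex.norm_real, Real.norm_eq_abs]
  unfold cf
  have h1 : ((m + 1).choose a : ℝ) ≤ 2 ^ (m + 1) := by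
    exact_mod_cast Nat.choose_le_two_pow _ _
  have h2 : ((m + 1).choose b : ℝ) ≤ 2 ^ (m + 1) := by
    exact_mod_cast Nat.choose_le_two_pow _ _
  have h3 : (1 : ℝ) ≤ |(m : ℝ) + 1| := by
    rw [abs_of_nonneg (by positivity)]
    linarith [Nat.cast_nonneg (α := ℝ) m]
  rw [abs_div, abs_mul, Nat.abs_cast, Nat.abs_cast]
  calc ((m + 1).choose a : ℝ) * ((m + 1).choose b) / |(m : ℝ) + 1|
      ≤ (2 ^ (m + 1) * 2 ^ (m + 1)) / 1 := by gcongr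
    _ = 4 ^ (m + 1) := by
        rw [div_one, ← mul_pow]
        norm_num

section G

variable {ι : Type} [Fintype ι] [DecidableEq ι] {mo : ι → Lat d} {W pw : ι → ℝ}
  {c cs : ι × Bool → ℂ} {K κ S : ℝ} {m : ℕ}

/-- Evaluation bound. -/
lemma eval_G_le (hmo : Function.Injective mo) (hW : ∀ n, 1 ≤ W n) (hp : ∀ n, 1 ≤ pw n)
    (hs : ∑ n, (pw n ^ 2)⁻¹ ≤ S ^ 2) (hS : 1 ≤ S) (hK : 1 ≤ K) (hc : ∀ v, ‖c v‖ ≤ K)
    (hcs : ∀ v, ‖cs v‖ ≤ K) {a b : ℕ} (ha : a ≤ m + 1) (hb : b ≤ m + 1) (hab : 2 ≤ a + b)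
    {y : ι × Bool → ℂ} (hy : nw (fun n => W n * pw n) y ≤ 1) :
    ‖eval y (G mo c cs a b)‖ ≤
      (4 * (2 * m + 2) * S * K) ^ (2 * m + 2) * nw (fun n => W n * pw n) y ^ 2 := by
  have hK0 : 0 ≤ K := by linarith
  have h1 := Cls_DW_of_D0 (mo := mo) hW hp hab (pow_nonneg hK0 _) (cls_G mo c cs a b hc hcs)
  have h2 := (evThm d (a + b) S hab hS ι mo W pw hmo hW hp hs _ _ (pow_nonneg hK0 _) h1).1 y
  set x := nw (fun n => W n * pw n) y with hx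
  have hx0 : 0 ≤ x := nw_nonneg' _ _
  have hm : ((a + b : ℕ) : ℝ) ≤ 2 * m + 2 := by exact_mod_cast (by omega : a + b ≤ 2 * m + 2)
  have hab1 : (2 : ℝ) ≤ ((a + b : ℕ) : ℝ) := by exact_mod_cast hab
  have hbase : 1 ≤ 4 * (2 * m + 2) * S * K := by
    have h3 : (1 : ℝ) ≤ 4 * (2 * m + 2) := by
      have : (0 : ℝ) ≤ m := Nat.cast_nonneg m
      linarith
    have h4 := one_le_mul_of_one_le_of_one_le h3 hS
    exact one_le_mul_of_one_le_of_one_le h4 hK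
  calc ‖eval y (G mo c cs a b)‖ ≤ (4 * (a + b : ℕ) * S) ^ (a + b) * K ^ (a + b) * x ^ (a + b) := h2
    _ = (4 * (a + b : ℕ) * S * K) ^ (a + b) * x ^ (a + b) := by rw [mul_pow _ K]
    _ ≤ (4 * (2 * m + 2) * S * K) ^ (2 * m + 2) * x ^ 2 := by
        refine mul_le_mul ?_ (pow_le_pow_of_le_one hx0 hy hab) (pow_nonneg hx0 _) (by positivity)
        calc (4 * (a + b : ℕ) * S * K) ^ (a + b) ≤ (4 * (2 * m + 2) * S * K) ^ (a + b) := by
              refine pow_le_pow_left₀ (by positivity) ?_ _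
              gcongr
          _ ≤ _ := pow_le_pow_right₀ hbase (by omega)

/-- Gradient bound. -/
lemma grad_G_le (hmo : Function.Injective mo) (hmo0 : ∀ n, mo n ≠ 0) (hW : ∀ n, 1 ≤ W n)
    (hp : ∀ n, 1 ≤ pw n) (hs : ∑ n, (pw n ^ 2)⁻¹ ≤ S ^ 2) (hS : 1 ≤ S) (hK : 1 ≤ K) (hκ : 1 ≤ κ)
    (hWm : ∀ (j : ℕ) (I : Fin (j + 1) → ι × Bool) (l : Fin (j + 1)), mom mo I = 0 →
      W (I l).1 ≤ ∏ i : Fin j, W (I (l.succAbove i)).1)
    (hpm : ∀ j : ℕ, j + 1 ≤ 2 * m + 2 → ∀ (I : Fin (j + 1) → ι × Bool) (l : Fin (j + 1)),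
      mom mo I = 0 → ∃ i : Fin j, pw (I l).1 ≤ κ * pw (I (l.succAbove i)).1)
    (hc : ∀ v, ‖c v‖ ≤ K)
    (hcs : ∀ v, ‖cs v‖ ≤ K) {a b : ℕ} (ha : a ≤ m + 1) (hb : b ≤ m + 1)
    {y : ι × Bool → ℂ} (hy : nw (fun n => W n * pw n) y ≤ 1) :
    nw (fun n => W n * pw n) (pt fun n => eval y (pderiv (n, false) (G mo c cs a b))) ≤
      2 * ((8 * (2 * m + 2) * κ * S * K) ^ (2 * m + 3)) * nw (fun n => W n * pw n) y := by
  have hK0 : 0 ≤ K := by linarith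
  set x := nw (fun n => W n * pw n) y with hx
  have hx0 : 0 ≤ x := nw_nonneg' _ _
  have hbase : 1 ≤ 8 * (2 * m + 2) * κ * S * K := by
    have h3 : (1 : ℝ) ≤ 8 * (2 * m + 2) := by
      have : (0 : ℝ) ≤ m := Nat.cast_nonneg m
      linarith
    exact one_le_mul_of_one_le_of_one_le
      (one_le_mul_of_one_le_of_one_le (one_le_mul_of_one_le_of_one_le h3 hκ) hS) hK
  have hzero : nw (fun n => W n * pw n) (pt fun _ : ι => (0 : ℂ)) = 0 := by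
    have : (pt fun _ : ι => (0 : ℂ)) = 0 := by
      funext v
      simp [pt]
    rw [this, nw_zero]
  by_cases hab : a + b < 2
  · have h3 : (a = 0 ∧ b = 0) ∨ (a = 1 ∧ b = 0) ∨ (a = 0 ∧ b = 1) := by omega
    have h4 : ∀ n : ι, eval y (pderiv (n, false) (G mo c cs a b)) = 0 := by
      intro n
      rcases h3 with ⟨rfl, rfl⟩ | ⟨rfl, rfl⟩ | ⟨rfl, rfl⟩
      · rw [G_zero_zero]
        simp
      · rw [G_one_zero mo hmo0]
        simp
      · rw [G_zero_one mo hmo0]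
        simp
    simp only [h4]
    rw [hzero]
    positivity
  · obtain ⟨j, hj⟩ : ∃ j, a + b = j + 1 := ⟨a + b - 1, by omega⟩
    have hcls : Cls mo D0 (j + 1) (K ^ (j + 1)) (G mo c cs a b) := by
      rw [← hj]
      exact cls_G mo c cs a b hc hcs
    have h2 := vfThm d j κ S (by omega) hκ hS ι mo W pw hmo hW hp (hWm j) (hpm j (by omega)) hs _ _
      (pow_nonneg hK0 _) hcls y
    have hjm : ((j : ℝ) + 1) ≤ 2 * m + 2 := by
      exact_mod_cast (by omega : j + 1 ≤ 2 * m + 2)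
    calc nw (fun n => W n * pw n) (pt fun n => eval y (pderiv (n, false) (G mo c cs a b)))
        ≤ 2 * nw (fun n => W n * pw n) (fun v => eval y (pderiv v (G mo c cs a b))) :=
          nw_pt_le (fun v => eval y (pderiv v (G mo c cs a b)))
      _ ≤ 2 * ((8 * (j + 1) * κ * S) ^ (j + 2) * K ^ (j + 1) * x ^ j) :=
          mul_le_mul_of_nonneg_left h2 zero_le_two
      _ ≤ 2 * ((8 * (2 * m + 2) * κ * S * K) ^ (2 * m + 3) * x) := by
          refine mul_le_mul_of_nonneg_left ?_ zero_le_two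
          have h5 : x ^ j ≤ x := by
            calc x ^ j ≤ x ^ 1 := pow_le_pow_of_le_one hx0 hy (by omega)
              _ = x := pow_one x
          refine mul_le_mul ?_ h5 (pow_nonneg hx0 _) (by positivity)
          calc (8 * ((j : ℝ) + 1) * κ * S) ^ (j + 2) * K ^ (j + 1)
              ≤ (8 * (2 * m + 2) * κ * S) ^ (j + 2) * K ^ (j + 2) := by
                refine mul_le_mul ?_ (pow_le_pow_right₀ hK (by omega)) (by positivity)
                  (by positivity)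
                refine pow_le_pow_left₀ (by positivity) ?_ _
                gcongr
            _ = (8 * (2 * m + 2) * κ * S * K) ^ (j + 2) := (mul_pow _ _ _).symm
            _ ≤ _ := pow_le_pow_right₀ hbase (by omega)
      _ = _ := by ring

end G

/-- The abstract form of the bound. -/
lemma abs_bound {ι : Type} [Fintype ι] {w : ι → ℝ} (hw0 : ∀ n, 0 ≤ w n) {m Lt : ℕ}
    {V E C0 x s : ℝ} (hV : 1 ≤ V) (hE : 1 ≤ E) (hC0 : 1 ≤ C0) (hx0 : 0 ≤ x) (hz : x ≤ 1)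
    (hs0 : 0 ≤ s) (hsx : s ≤ E * x ^ 2) (g : ℕ → ℕ → ι → ℂ) (ev : ℕ → ℕ → ℂ)
    (hG : ∀ a ≤ m + 1, ∀ b ≤ m + 1, nw w (pt (g a b)) ≤ V * x)
    (hGe : ∀ a ≤ m + 1, ∀ b ≤ m + 1, ‖ev a b‖ ≤ E) (u₁ u₂ : ℕ → ℂ)
    (hu₁ : ∀ r ≤ 2 * m + 2, ‖u₁ r‖ ≤ C0 ^ (Lt + 1) * s ^ (Lt + 1))
    (hu₂ : ∀ r ≤ 2 * m + 2, ‖u₂ r‖ ≤ C0 ^ (Lt + 1) * s ^ Lt) :
    nw w (pt fun n => ∑ a ∈ range (m + 2), ∑ b ∈ range (m + 2), (cf m a b : ℂ) *
        (u₁ (2 * m + 2 - a - b) * g a b n + u₂ (2 * m + 2 - a - b) * g 1 1 n * ev a b)) ≤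
      (m + 2) * (m + 2) * (4 ^ (m + 1) * (2 * V)) *
        ((C0 * E) ^ (Lt + 1) * x ^ (2 * Lt + 1)) := by
  have hterm : ∀ a ∈ range (m + 2), ∀ b ∈ range (m + 2),
      nw w (pt fun n => (cf m a b : ℂ) *
        (u₁ (2 * m + 2 - a - b) * g a b n + u₂ (2 * m + 2 - a - b) * g 1 1 n * ev a b)) ≤
      4 ^ (m + 1) * (2 * V) * ((C0 * E) ^ (Lt + 1) * x ^ (2 * Lt + 1)) := by
    intro a ha b hb
    rw [Finset.mem_range] at ha hb
    rw [nw_pt_mul]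
    have hr : 2 * m + 2 - a - b ≤ 2 * m + 2 := by omega
    have h1 := hu₁ _ hr
    have h2 := hu₂ _ hr
    have h3 : nw w (pt fun n =>
        (u₁ (2 * m + 2 - a - b) * g a b n + u₂ (2 * m + 2 - a - b) * g 1 1 n * ev a b)) ≤
        (C0 ^ (Lt + 1) * s ^ (Lt + 1)) * (V * x) + (C0 ^ (Lt + 1) * s ^ Lt) * E * (V * x) := by
      refine (nw_pt_add_le hw0 _ _).trans (add_le_add ?_ ?_)
      · rw [nw_pt_mul]
        exact mul_le_mul h1 (hG a (by omega) b (by omega)) (nw_nonneg' _ _) (by positivity)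
      · have h4 : (fun n : ι => u₂ (2 * m + 2 - a - b) * g 1 1 n * ev a b) =
            fun n => (u₂ (2 * m + 2 - a - b) * ev a b) * g 1 1 n := by
          funext n
          ring
        rw [h4, nw_pt_mul, norm_mul]
        refine mul_le_mul (mul_le_mul h2 (hGe a (by omega) b (by omega)) (norm_nonneg _)
          (by positivity)) (hG 1 (by omega) 1 (by omega)) (nw_nonneg' _ _) (by positivity)
    have h5 : s ^ (Lt + 1) * x ≤ E ^ (Lt + 1) * x ^ (2 * Lt + 1) := by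
      calc s ^ (Lt + 1) * x ≤ (E * x ^ 2) ^ (Lt + 1) * x :=
            mul_le_mul_of_nonneg_right (pow_le_pow_left₀ hs0 hsx _) hx0
        _ = E ^ (Lt + 1) * x ^ (2 * Lt + 3) := by rw [mul_pow, ← pow_mul]; ring
        _ ≤ E ^ (Lt + 1) * x ^ (2 * Lt + 1) :=
            mul_le_mul_of_nonneg_left (pow_le_pow_of_le_one hx0 hz (by omega)) (by positivity)
    have h6 : s ^ Lt * E * x ≤ E ^ (Lt + 1) * x ^ (2 * Lt + 1) := by
      calc s ^ Lt * E * x ≤ (E * x ^ 2) ^ Lt * E * x := by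
            gcongr
        _ = E ^ (Lt + 1) * x ^ (2 * Lt + 1) := by rw [mul_pow, ← pow_mul]; ring
    have hC : 0 ≤ C0 ^ (Lt + 1) := by positivity
    have hV0 : 0 ≤ V := by linarith
    have hCV : 0 ≤ C0 ^ (Lt + 1) * V := mul_nonneg hC hV0
    calc ‖(cf m a b : ℂ)‖ * nw w (pt fun n =>
        (u₁ (2 * m + 2 - a - b) * g a b n + u₂ (2 * m + 2 - a - b) * g 1 1 n * ev a b))
        ≤ 4 ^ (m + 1) * ((C0 ^ (Lt + 1) * s ^ (Lt + 1)) * (V * x) +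
            (C0 ^ (Lt + 1) * s ^ Lt) * E * (V * x)) :=
          mul_le_mul (abs_cf_le m a b) h3 (nw_nonneg' _ _) (by positivity)
      _ = 4 ^ (m + 1) * ((C0 ^ (Lt + 1) * V) * (s ^ (Lt + 1) * x) +
            (C0 ^ (Lt + 1) * V) * (s ^ Lt * E * x)) := by ring
      _ ≤ 4 ^ (m + 1) * ((C0 ^ (Lt + 1) * V) * (E ^ (Lt + 1) * x ^ (2 * Lt + 1)) +
            (C0 ^ (Lt + 1) * V) * (E ^ (Lt + 1) * x ^ (2 * Lt + 1))) := by
          refine mul_le_mul_of_nonneg_left (add_le_add ?_ ?_) (by positivity)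
          · exact mul_le_mul_of_nonneg_left h5 hCV
          · exact mul_le_mul_of_nonneg_left h6 hCV
      _ = _ := by
          rw [mul_pow]
          ring
  calc _ ≤ ∑ a ∈ range (m + 2), nw w (pt fun n => ∑ b ∈ range (m + 2), (cf m a b : ℂ) *
        (u₁ (2 * m + 2 - a - b) * g a b n + u₂ (2 * m + 2 - a - b) * g 1 1 n * ev a b)) :=
        nw_pt_sum_le hw0 (range (m + 2)) _
    _ ≤ ∑ a ∈ range (m + 2), ∑ b ∈ range (m + 2),
        4 ^ (m + 1) * (2 * V) * ((C0 * E) ^ (Lt + 1) * x ^ (2 * Lt + 1)) := by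
        refine Finset.sum_le_sum fun a ha => ?_
        refine (nw_pt_sum_le hw0 (range (m + 2)) _).trans (Finset.sum_le_sum fun b hb => ?_)
        exact hterm a ha b hb
    _ = _ := by
        rw [Finset.sum_const, Finset.sum_const, Finset.card_range, nsmul_eq_mul, nsmul_eq_mul]
        push_cast
        ring

/-- The bound for a general family of modes. -/
lemma gen_bound {ι : Type} [Fintype ι] [DecidableEq ι] {mo : ι → Lat d} {W pw : ι → ℝ}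
    {c cs : ι × Bool → ℂ} {K κ S C0 : ℝ} {m Lt : ℕ}
    (hmo : Function.Injective mo) (hmo0 : ∀ n, mo n ≠ 0) (hW : ∀ n, 1 ≤ W n)
    (hp : ∀ n, 1 ≤ pw n) (hs : ∑ n, (pw n ^ 2)⁻¹ ≤ S ^ 2) (hS : 1 ≤ S) (hK : 1 ≤ K) (hκ : 1 ≤ κ)
    (hC0 : 1 ≤ C0)
    (hWm : ∀ (j : ℕ) (I : Fin (j + 1) → ι × Bool) (l : Fin (j + 1)), mom mo I = 0 →
      W (I l).1 ≤ ∏ i : Fin j, W (I (l.succAbove i)).1)
    (hpm : ∀ j : ℕ, j + 1 ≤ 2 * m + 2 → ∀ (I : Fin (j + 1) → ι × Bool) (l : Fin (j + 1)),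
      mom mo I = 0 → ∃ i : Fin j, pw (I l).1 ≤ κ * pw (I (l.succAbove i)).1)
    (hc : ∀ v, ‖c v‖ ≤ K) (hcs : ∀ v, ‖cs v‖ ≤ K) {z : ι → ℂ} {s : ℝ} (hs0 : 0 ≤ s)
    (hsG : eval (pt z) (G mo c cs 1 1) = s)
    (hz : nw (fun n => W n * pw n) (pt z) ≤ 1) (u₁ u₂ : ℕ → ℂ)
    (hu₁ : ∀ r ≤ 2 * m + 2, ‖u₁ r‖ ≤ C0 ^ (Lt + 1) * s ^ (Lt + 1))
    (hu₂ : ∀ r ≤ 2 * m + 2, ‖u₂ r‖ ≤ C0 ^ (Lt + 1) * s ^ Lt) :
    nw (fun n => W n * pw n) (pt fun n => ∑ a ∈ range (m + 2), ∑ b ∈ range (m + 2),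
      (cf m a b : ℂ) *
        (u₁ (2 * m + 2 - a - b) * eval (pt z) (pderiv (n, false) (G mo c cs a b)) +
          u₂ (2 * m + 2 - a - b) * eval (pt z) (pderiv (n, false) (G mo c cs 1 1)) *
            eval (pt z) (G mo c cs a b))) ≤
      (m + 2) * (m + 2) * (4 ^ (m + 1) *
        (2 * (2 * ((8 * (2 * m + 2) * κ * S * K) ^ (2 * m + 3))))) *
        ((C0 * (4 * (2 * m + 2) * S * K) ^ (2 * m + 2)) ^ (Lt + 1) *
          nw (fun n => W n * pw n) (pt z) ^ (2 * Lt + 1)) := by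
  have hm0 : (0 : ℝ) ≤ m := Nat.cast_nonneg m
  have hE1 : 1 ≤ (4 * (2 * m + 2) * S * K) ^ (2 * m + 2) := by
    refine one_le_pow₀ ?_
    have h3 : (1 : ℝ) ≤ 4 * (2 * m + 2) := by linarith
    exact one_le_mul_of_one_le_of_one_le (one_le_mul_of_one_le_of_one_le h3 hS) hK
  have hV1 : 1 ≤ 2 * ((8 * (2 * m + 2) * κ * S * K) ^ (2 * m + 3)) := by
    have h3 : (1 : ℝ) ≤ 8 * (2 * m + 2) := by linarith
    have h4 : 1 ≤ (8 * (2 * m + 2) * κ * S * K) ^ (2 * m + 3) := one_le_pow₀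
      (one_le_mul_of_one_le_of_one_le
        (one_le_mul_of_one_le_of_one_le (one_le_mul_of_one_le_of_one_le h3 hκ) hS) hK)
    linarith
  have hx0 : 0 ≤ nw (fun n => W n * pw n) (pt z) := nw_nonneg' _ _
  have hGe : ∀ a ≤ m + 1, ∀ b ≤ m + 1, 2 ≤ a + b → ‖eval (pt z) (G mo c cs a b)‖ ≤
      (4 * (2 * m + 2) * S * K) ^ (2 * m + 2) * nw (fun n => W n * pw n) (pt z) ^ 2 :=
    fun a ha b hb hab => eval_G_le hmo hW hp hs hS hK hc hcs ha hb hab hz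
  refine abs_bound (w := fun n => W n * pw n)
    (fun n => mul_nonneg (by linarith [hW n]) (by linarith [hp n])) hV1 hE1 hC0 hx0 hz hs0 ?_
    (fun a b n => eval (pt z) (pderiv (n, false) (G mo c cs a b)))
    (fun a b => eval (pt z) (G mo c cs a b)) ?_ ?_ u₁ u₂ hu₁ hu₂
  · have h1 := hGe 1 (by omega) 1 (by omega) le_rfl
    rw [hsG, Complex.norm_real, Real.norm_eq_abs, abs_of_nonneg hs0] at h1
    exact h1
  · intro a ha b hb
    exact grad_G_le hmo hmo0 hW hp hs hS hK hκ hWm hpm hc hcs ha hb hz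
  · intro a ha b hb
    by_cases hab : 2 ≤ a + b
    · refine (hGe a ha b hb hab).trans ?_
      have hx2 : nw (fun n => W n * pw n) (pt z) ^ 2 ≤ 1 := pow_le_one₀ hx0 hz
      nlinarith
    · have h3 : (a = 0 ∧ b = 0) ∨ (a = 1 ∧ b = 0) ∨ (a = 0 ∧ b = 1) := by omega
      rcases h3 with ⟨rfl, rfl⟩ | ⟨rfl, rfl⟩ | ⟨rfl, rfl⟩
      · rw [G_zero_zero, map_one, norm_one]
        exact hE1
      · rw [G_one_zero mo hmo0, map_zero, norm_zero]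
        linarith
      · rw [G_zero_one mo hmo0, map_zero, norm_zero]
        linarith

/-- **Row R8c: bound of the remainder**, with an explicit constant. -/
theorem rem_boundE (d m q : ℕ) (hq : d ≤ q) :
    ∃ A₁ : ℝ, 1 ≤ A₁ ∧ ∀ (K C0 : ℝ), 1 ≤ K → 1 ≤ C0 →
    ∀ (N Lt : ℕ), Lt = N + 1 → ∀ (B : Finset (Lat d)), (0 : Lat d) ∉ B →
    ∀ (W pw : Lat d → ℝ), (∀ n, 1 ≤ W n) → (∀ n, W (-n) = W n) →
      (∀ a b, W (a + b) ≤ W a * W b) → (∀ n, pw n = (1 + sqNorm n) ^ q) →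
    ∀ (c cs : {n // n ∈ B} × Bool → ℂ), (∀ v, ‖c v‖ ≤ K) → (∀ v, ‖cs v‖ ≤ K) →
    ∀ (z : {n // n ∈ B} → ℂ) (s : ℝ), 0 ≤ s →
      eval (pt z) (G (fun n : {n // n ∈ B} => n.1) c cs 1 1) = s →
      nw (fun n : {n // n ∈ B} => W n.1 * pw n.1) (pt z) ≤ 1 →
    ∀ (u₁ u₂ : ℕ → ℂ), (∀ r ≤ 2 * m + 2, ‖u₁ r‖ ≤ C0 ^ (Lt + 1) * s ^ (Lt + 1)) →
      (∀ r ≤ 2 * m + 2, ‖u₂ r‖ ≤ C0 ^ (Lt + 1) * s ^ Lt) →
    ∀ (e : ℂ), ‖e‖ ≤ 1 → ∀ ρ : {n // n ∈ B} → ℂ,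
      (∀ n, ρ n = e * ∑ a ∈ range (m + 2), ∑ b ∈ range (m + 2), (cf m a b : ℂ) *
        (u₁ (2 * m + 2 - a - b) *
            eval (pt z) (pderiv (n, false) (G (fun n : {n // n ∈ B} => n.1) c cs a b)) +
          u₂ (2 * m + 2 - a - b) *
            eval (pt z) (pderiv (n, false) (G (fun n : {n // n ∈ B} => n.1) c cs 1 1)) *
            eval (pt z) (G (fun n : {n // n ∈ B} => n.1) c cs a b))) →
      nw (fun n : {n // n ∈ B} => W n.1 * pw n.1) (pt ρ) ≤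
        ((A₁ * K * C0) ^ (6 * m + 7)) ^ (N + 1) *
          nw (fun n : {n // n ∈ B} => W n.1 * pw n.1) (pt z) ^ (N + 2) := by
  classical
  obtain ⟨S, hS, hsum⟩ := exists_summ d
  have hκ : 1 ≤ ((2 * m + 2 : ℕ) : ℝ) ^ (2 * q) :=
    one_le_pow₀ (by exact_mod_cast (by omega : 1 ≤ 2 * m + 2))
  generalize hκ' : ((2 * m + 2 : ℕ) : ℝ) ^ (2 * q) = κ at hκ
  have hm0 : (0 : ℝ) ≤ m := Nat.cast_nonneg m
  have hD01 : 1 ≤ ((m : ℝ) + 2) * (m + 2) * (4 ^ (m + 1) *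
      (2 * (2 * ((8 * (2 * m + 2) * κ * S) ^ (2 * m + 3))))) := by
    have h1 : (1 : ℝ) ≤ m + 2 := by linarith
    have h2 : (1 : ℝ) ≤ 4 ^ (m + 1) := one_le_pow₀ (by norm_num)
    have h3 : (1 : ℝ) ≤ 8 * (2 * m + 2) := by linarith
    have h4 : 1 ≤ (8 * (2 * m + 2) * κ * S) ^ (2 * m + 3) := one_le_pow₀
        (one_le_mul_of_one_le_of_one_le (one_le_mul_of_one_le_of_one_le h3 hκ) hS)
    have h5 : (1 : ℝ) ≤ 2 * (2 * ((8 * (2 * m + 2) * κ * S) ^ (2 * m + 3))) := by linarith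
    exact one_le_mul_of_one_le_of_one_le (one_le_mul_of_one_le_of_one_le h1 h1)
      (one_le_mul_of_one_le_of_one_le h2 h5)
  have hF01 : 1 ≤ (4 * (2 * m + 2) * S) ^ (2 * m + 2) := by
    refine one_le_pow₀ ?_
    have h3 : (1 : ℝ) ≤ 4 * (2 * m + 2) := by linarith
    exact one_le_mul_of_one_le_of_one_le h3 hS
  refine ⟨((m : ℝ) + 2) * (m + 2) * (4 ^ (m + 1) *
      (2 * (2 * ((8 * (2 * m + 2) * κ * S) ^ (2 * m + 3))))) *
      ((4 * (2 * m + 2) * S) ^ (2 * m + 2)) ^ 2,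
    one_le_mul_of_one_le_of_one_le hD01 (one_le_pow₀ hF01), ?_⟩
  intro K C0 hK hC0 N Lt hLt B h0 W pw hW hWe hWm hpw c cs hc hcs z s hs0 hs hz u₁ u₂ hu₁ hu₂ e
    he ρ hρ
  have hmo0 : ∀ n : {n // n ∈ B}, n.1 ≠ 0 := fun n hn => h0 (by rw [← hn]; exact n.2)
  have hpw1 : ∀ n, 1 ≤ pw n := by
    intro n
    rw [hpw]
    exact one_le_pow₀ (by linarith [sqNorm_nonneg n])
  have hss : ∑ n : {n // n ∈ B}, (pw n.1 ^ 2)⁻¹ ≤ S ^ 2 := by
    rw [Finset.sum_coe_sort B fun n => (pw n ^ 2)⁻¹]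
    simp only [hpw]
    exact hsum q hq B
  have key := gen_bound (mo := fun n : {n // n ∈ B} => n.1) (W := fun n => W n.1)
    (pw := fun n => pw n.1) (κ := κ) (m := m) (Lt := Lt) Subtype.val_injective hmo0
    (fun n => hW n.1) (fun n => hpw1 n.1) hss hS hK hκ hC0
    (fun j I l h => W_mom_of hmo0 hW hWe hWm I l h)
    (fun j hj I l h => by
      simp only [hpw]
      rw [← hκ']
      exact pw_mom_of hmo0 hj I l h) hc hcs hs0 hs hz u₁ u₂ hu₁ hu₂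
  have hx0 : 0 ≤ nw (fun n : {n // n ∈ B} => W n.1 * pw n.1) (pt z) := nw_nonneg' _ _
  rw [funext hρ, nw_pt_mul]
  refine (mul_le_mul he key (nw_nonneg' _ _) zero_le_one).trans ?_
  have e1 : ((m : ℝ) + 2) * (m + 2) * (4 ^ (m + 1) *
      (2 * (2 * ((8 * (2 * m + 2) * κ * S * K) ^ (2 * m + 3))))) =
      ((m : ℝ) + 2) * (m + 2) * (4 ^ (m + 1) *
      (2 * (2 * ((8 * (2 * m + 2) * κ * S) ^ (2 * m + 3))))) * K ^ (2 * m + 3) := by
    rw [mul_pow _ K]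
    ring
  have e2 : C0 * (4 * (2 * m + 2) * S * K) ^ (2 * m + 2) =
      (4 * (2 * m + 2) * S) ^ (2 * m + 2) * C0 * K ^ (2 * m + 2) := by
    rw [mul_pow _ K]
    ring
  rw [e1, e2]
  generalize ((m : ℝ) + 2) * (m + 2) * (4 ^ (m + 1) *
      (2 * (2 * ((8 * (2 * m + 2) * κ * S) ^ (2 * m + 3))))) = D at hD01 ⊢
  generalize (4 * (2 * m + 2) * S) ^ (2 * m + 2) = F at hF01 ⊢
  generalize nw (fun n : {n // n ∈ B} => W n.1 * pw n.1) (pt z) = x at hx0 hz ⊢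
  subst hLt
  have hDK : 1 ≤ D * K ^ (2 * m + 3) := one_le_mul_of_one_le_of_one_le hD01 (one_le_pow₀ hK)
  have hFK : 1 ≤ F * C0 * K ^ (2 * m + 2) :=
    one_le_mul_of_one_le_of_one_le (one_le_mul_of_one_le_of_one_le hF01 hC0) (one_le_pow₀ hK)
  calc 1 * (D * K ^ (2 * m + 3) * ((F * C0 * K ^ (2 * m + 2)) ^ (N + 1 + 1) *
        x ^ (2 * (N + 1) + 1)))
      = (D * K ^ (2 * m + 3) * (F * C0 * K ^ (2 * m + 2)) ^ (N + 2)) * x ^ (2 * N + 3) := by ring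
    _ ≤ ((D * K ^ (2 * m + 3)) * (F * C0 * K ^ (2 * m + 2)) ^ 2) ^ (N + 1) * x ^ (N + 2) := by
        refine mul_le_mul ?_ (pow_le_pow_of_le_one hx0 hz (by omega)) (by positivity)
          (by positivity)
        rw [mul_pow (D * K ^ (2 * m + 3)), ← pow_mul (F * C0 * K ^ (2 * m + 2))]
        refine mul_le_mul ?_ (pow_le_pow_right₀ hFK (by omega)) (by positivity) (by positivity)
        exact le_self_pow₀ hDK (by omega)
    _ ≤ ((D * F ^ 2 * K * C0) ^ (6 * m + 7)) ^ (N + 1) * x ^ (N + 2) := by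
        refine mul_le_mul_of_nonneg_right (pow_le_pow_left₀ (by positivity) ?_ _) (by positivity)
        have hDF : 1 ≤ D * F ^ 2 := one_le_mul_of_one_le_of_one_le hD01 (one_le_pow₀ hF01)
        calc D * K ^ (2 * m + 3) * (F * C0 * K ^ (2 * m + 2)) ^ 2
            = (D * F ^ 2) * (K ^ (6 * m + 7) * C0 ^ 2) := by ring
          _ ≤ (D * F ^ 2) ^ (6 * m + 7) * (K ^ (6 * m + 7) * C0 ^ (6 * m + 7)) := by
              refine mul_le_mul (le_self_pow₀ hDF (by omega)) ?_ (by positivity) (by positivity)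
              refine mul_le_mul_of_nonneg_left (pow_le_pow_right₀ hC0 (by omega)) (by positivity)
          _ = (D * F ^ 2 * K * C0) ^ (6 * m + 7) := by
              rw [← mul_pow, ← mul_pow, mul_assoc (D * F ^ 2)]

/-- **Row R8c: bound of the remainder.** -/
theorem rem_bound (d m q : ℕ) (hq : d ≤ q) (K C0 : ℝ) (hK : 1 ≤ K) (hC0 : 1 ≤ C0) :
    ∃ A₀ : ℝ, 1 ≤ A₀ ∧ ∀ (N Lt : ℕ), Lt = N + 1 → ∀ (B : Finset (Lat d)), (0 : Lat d) ∉ B →
    ∀ (W pw : Lat d → ℝ), (∀ n, 1 ≤ W n) → (∀ n, W (-n) = W n) →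
      (∀ a b, W (a + b) ≤ W a * W b) → (∀ n, pw n = (1 + sqNorm n) ^ q) →
    ∀ (c cs : {n // n ∈ B} × Bool → ℂ), (∀ v, ‖c v‖ ≤ K) → (∀ v, ‖cs v‖ ≤ K) →
    ∀ (z : {n // n ∈ B} → ℂ) (s : ℝ), 0 ≤ s →
      eval (pt z) (G (fun n : {n // n ∈ B} => n.1) c cs 1 1) = s →
      nw (fun n : {n // n ∈ B} => W n.1 * pw n.1) (pt z) ≤ 1 →
    ∀ (u₁ u₂ : ℕ → ℂ), (∀ r ≤ 2 * m + 2, ‖u₁ r‖ ≤ C0 ^ (Lt + 1) * s ^ (Lt + 1)) →
      (∀ r ≤ 2 * m + 2, ‖u₂ r‖ ≤ C0 ^ (Lt + 1) * s ^ Lt) →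
    ∀ (e : ℂ), ‖e‖ ≤ 1 → ∀ ρ : {n // n ∈ B} → ℂ,
      (∀ n, ρ n = e * ∑ a ∈ range (m + 2), ∑ b ∈ range (m + 2), (cf m a b : ℂ) *
        (u₁ (2 * m + 2 - a - b) *
            eval (pt z) (pderiv (n, false) (G (fun n : {n // n ∈ B} => n.1) c cs a b)) +
          u₂ (2 * m + 2 - a - b) *
            eval (pt z) (pderiv (n, false) (G (fun n : {n // n ∈ B} => n.1) c cs 1 1)) *
            eval (pt z) (G (fun n : {n // n ∈ B} => n.1) c cs a b))) →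
      nw (fun n : {n // n ∈ B} => W n.1 * pw n.1) (pt ρ) ≤
        A₀ ^ (N + 1) * nw (fun n : {n // n ∈ B} => W n.1 * pw n.1) (pt z) ^ (N + 2) := by
  obtain ⟨A₁, hA₁, h⟩ := rem_boundE d m q hq
  exact ⟨(A₁ * K * C0) ^ (6 * m + 7), one_le_pow₀
    (one_le_mul_of_one_le_of_one_le (one_le_mul_of_one_le_of_one_le hA₁ hK) hC0), h K C0 hK hC0⟩

end Vale.Agent.P139.BN.R8
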