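import Mathlib.MeasureTheory.Measure.Lebesgue.Basic
import Mathlib.Analysis.Calculus.Deriv.MeanValue
import Mathlib.Analysis.SpecialFunctions.Pow.Real

/-! Sublevel sets of functions with a derivative bounded below. -/

set_option autoImplicit false

open Set MeasureTheory
open scoped ENNReal

namespace Vale.Agent.P139.R2S

/-- Mean value lower bound on an order connected set. -/
lemma mvt_lower {f f' : ℝ → ℝ} {s : Set ℝ} (hs : s.OrdConnected)
    (hd : ∀ x ∈ s, HasDerivAt f (f' x) x) {lam : ℝ} (hl : ∀ x ∈ s, lam ≤ |f' x|)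
    {x y : ℝ} (hx : x ∈ s) (hy : y ∈ s) : lam * |x - y| ≤ |f x - f y| := by
  wlog hxy : x < y generalizing x y
  · rcases eq_or_lt_of_le (not_lt.1 hxy) with h | h
    · subst h; simp
    · have := this hy hx h
      rwa [abs_sub_comm, abs_sub_comm (f x)]
  have hsub : Icc x y ⊆ s := hs.out hx hy
  obtain ⟨c, hc, hcd⟩ := exists_hasDerivAt_eq_slope f f' hxy
    (fun z hz => (hd z (hsub hz)).continuousAt.continuousWithinAt)
    (fun z hz => hd z (hsub (Ioo_subset_Icc_self hz)))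
  have h1 := hl c (hsub (Ioo_subset_Icc_self hc))
  rw [hcd, abs_div, le_div_iff₀ (abs_pos.2 (by linarith))] at h1
  rw [abs_sub_comm x y, abs_sub_comm (f x)]
  exact h1

/-- A set of diameter at most `r` has measure at most `r`. -/
lemma volume_le_of_dist {s : Set ℝ} {r : ℝ} (h : ∀ x ∈ s, ∀ y ∈ s, |x - y| ≤ r) :
    volume s ≤ ENNReal.ofReal r := by
  refine (Real.volume_le_diam s).trans (Metric.ediam_le fun x hx y hy => ?_)
  rw [edist_dist, Real.dist_eq]
  exact ENNReal.ofReal_le_ofReal (h x hx y hy)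

/-- If the `k+1`-st derivative is at least `lam` in absolute value on an order connected set, then
the set where the function is smaller than `dl` has measure at most
`2 ^ (k+2) (dl / lam) ^ (1 / (k+1))`. -/
theorem sublevel {F : ℕ → ℝ → ℝ} {s : Set ℝ} (hs : s.OrdConnected) (k : ℕ)
    (hd : ∀ i ≤ k, ∀ x ∈ s, HasDerivAt (F i) (F (i + 1) x) x) {lam dl : ℝ} (hlam : 0 < lam)
    (hl : ∀ x ∈ s, lam ≤ |F (k + 1) x|) (hdl : 0 < dl) :
    volume {x ∈ s | |F 0 x| < dl} ≤
      ENNReal.ofReal ((2 ^ (k + 2) - 2) * (dl / lam) ^ ((1 : ℝ) / (k + 1 : ℕ))) := by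
  induction k generalizing s lam with
  | zero =>
    have h1 : ∀ x ∈ {x ∈ s | |F 0 x| < dl}, ∀ y ∈ {x ∈ s | |F 0 x| < dl},
        |x - y| ≤ 2 * (dl / lam) := by
      intro x hx y hy
      have h2 := mvt_lower hs (hd 0 le_rfl) hl hx.1 hy.1
      have h3 : |F 0 x - F 0 y| ≤ 2 * dl := by
        have := abs_sub (F 0 x) (F 0 y)
        have hx2 := hx.2
        have hy2 := hy.2
        calc |F 0 x - F 0 y| ≤ |F 0 x| + |F 0 y| := abs_sub _ _
          _ ≤ 2 * dl := by linarith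
      rw [← mul_div_assoc, le_div_iff₀ hlam]
      linarith [mul_comm lam |x - y|]
    refine (volume_le_of_dist h1).trans (ENNReal.ofReal_le_ofReal ?_)
    norm_num
  | succ k ih =>
    set r : ℝ := (dl / lam) ^ ((1 : ℝ) / (k + 1 + 1 : ℕ)) with hr
    have hq : 0 < dl / lam := by positivity
    have hr0 : 0 < r := Real.rpow_pos_of_pos hq _
    have hk1 : ((k + 1 + 1 : ℕ) : ℝ) ≠ 0 := by positivity
    have hrk : r ^ (k + 2) = dl / lam := by
      rw [hr, ← Real.rpow_natCast, ← Real.rpow_mul hq.le]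
      rw [one_div, show ((k + 2 : ℕ) : ℝ) = ((k + 1 + 1 : ℕ) : ℝ) from rfl,
        inv_mul_cancel₀ hk1, Real.rpow_one]
    set τ : ℝ := lam * r with hτ
    have hτ0 : 0 < τ := by positivity
    -- the three parts
    set J : Set ℝ := {x ∈ s | |F (k + 1) x| < τ} with hJ
    set L : Set ℝ := {x ∈ s | ∀ y ∈ J, x < y} with hL
    set R : Set ℝ := {x ∈ s | ∀ y ∈ J, y < x} with hR
    set Mid : Set ℝ := {x ∈ s | (∃ y ∈ J, y ≤ x) ∧ ∃ y ∈ J, x ≤ y} with hMid
    have hLo : L.OrdConnected := by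
      refine ⟨fun x hx y hy z hz => ⟨hs.out hx.1 hy.1 hz, fun w hw => ?_⟩⟩
      exact lt_of_le_of_lt hz.2 (hy.2 w hw)
    have hRo : R.OrdConnected := by
      refine ⟨fun x hx y hy z hz => ⟨hs.out hx.1 hy.1 hz, fun w hw => ?_⟩⟩
      exact lt_of_lt_of_le (hx.2 w hw) hz.1
    have hcov : {x ∈ s | |F 0 x| < dl} ⊆
        ({x ∈ L | |F 0 x| < dl} ∪ {x ∈ R | |F 0 x| < dl}) ∪ Mid := by
      intro x hx
      by_cases h1 : ∀ y ∈ J, x < y
      · exact Or.inl (Or.inl ⟨⟨hx.1, h1⟩, hx.2⟩)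
      by_cases h2 : ∀ y ∈ J, y < x
      · exact Or.inl (Or.inr ⟨⟨hx.1, h2⟩, hx.2⟩)
      push Not at h1 h2
      exact Or.inr ⟨hx.1, h1, h2⟩
    have hJd : ∀ x ∈ J, ∀ y ∈ J, |x - y| ≤ 2 * r := by
      intro x hx y hy
      have h2 := mvt_lower hs (hd (k + 1) le_rfl) hl hx.1 hy.1
      have h3 : |F (k + 1) x - F (k + 1) y| ≤ 2 * τ := by
        have hx2 := hx.2
        have hy2 := hy.2
        calc |F (k + 1) x - F (k + 1) y| ≤ |F (k + 1) x| + |F (k + 1) y| := abs_sub _ _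
          _ ≤ 2 * τ := by linarith
      have h4 : lam * |x - y| ≤ lam * (2 * r) := by rw [hτ] at h3; linarith
      exact le_of_mul_le_mul_left h4 hlam
    have hMd : ∀ x ∈ Mid, ∀ y ∈ Mid, |x - y| ≤ 2 * r := by
      rintro x ⟨-, ⟨x1, hx1, hx1'⟩, x2, hx2, hx2'⟩ y ⟨-, ⟨y1, hy1, hy1'⟩, y2, hy2, hy2'⟩
      have h1 := abs_le.1 (hJd x2 hx2 y1 hy1)
      have h2 := abs_le.1 (hJd y2 hy2 x1 hx1)
      rw [abs_le]
      constructor <;> linarith [h1.1, h1.2, h2.1, h2.2]
    have hLl : ∀ x ∈ L, τ ≤ |F (k + 1) x| := by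
      intro x hx
      by_contra h
      exact lt_irrefl x (hx.2 x ⟨hx.1, not_le.1 h⟩)
    have hRl : ∀ x ∈ R, τ ≤ |F (k + 1) x| := by
      intro x hx
      by_contra h
      exact lt_irrefl x (hx.2 x ⟨hx.1, not_le.1 h⟩)
    have hpow : (dl / τ) ^ ((1 : ℝ) / (k + 1 : ℕ)) = r := by
      have h1 : dl / τ = r ^ (k + 1) := by
        rw [hτ, ← div_div, ← hrk]
        field_simp
        ring
      rw [h1, ← Real.rpow_natCast, ← Real.rpow_mul hr0.le, one_div,
        mul_inv_cancel₀ (by positivity), Real.rpow_one]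
    have e1 := ih (s := L) hLo (fun i hi x hx => hd i (by omega) x hx.1) hτ0 hLl
    have e2 := ih (s := R) hRo (fun i hi x hx => hd i (by omega) x hx.1) hτ0 hRl
    rw [hpow] at e1 e2
    have hc0 : (0 : ℝ) ≤ 2 ^ (k + 2) - 2 := by
      have : (2 : ℝ) ^ 1 ≤ 2 ^ (k + 2) := pow_le_pow_right₀ (by norm_num) (by omega)
      linarith
    calc volume {x ∈ s | |F 0 x| < dl}
        ≤ volume (({x ∈ L | |F 0 x| < dl} ∪ {x ∈ R | |F 0 x| < dl}) ∪ Mid) := measure_mono hcov
      _ ≤ volume {x ∈ L | |F 0 x| < dl} + volume {x ∈ R | |F 0 x| < dl} + volume Mid :=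
          (measure_union_le _ _).trans (by gcongr; exact measure_union_le _ _)
      _ ≤ ENNReal.ofReal ((2 ^ (k + 2) - 2) * r) + ENNReal.ofReal ((2 ^ (k + 2) - 2) * r) +
          ENNReal.ofReal (2 * r) := by
          gcongr
          exact volume_le_of_dist hMd
      _ = ENNReal.ofReal ((2 ^ (k + 2) - 2) * r + (2 ^ (k + 2) - 2) * r + 2 * r) := by
          rw [ENNReal.ofReal_add (by positivity) (by positivity),
            ENNReal.ofReal_add (by positivity) (by positivity)]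
      _ = ENNReal.ofReal ((2 ^ (k + 1 + 2) - 2) * r) := by
          congr 1
          ring

/-- Mean value upper bound on an order connected set. -/
lemma mvt_upper {f f' : ℝ → ℝ} {s : Set ℝ} (hs : s.OrdConnected)
    (hd : ∀ x ∈ s, HasDerivAt f (f' x) x) {M : ℝ} (hl : ∀ x ∈ s, |f' x| ≤ M)
    {x y : ℝ} (hx : x ∈ s) (hy : y ∈ s) : |f x - f y| ≤ M * |x - y| := by
  wlog hxy : x < y generalizing x y
  · rcases eq_or_lt_of_le (not_lt.1 hxy) with h | h
    · subst h; simp
    · have := this hy hx h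
      rwa [abs_sub_comm, abs_sub_comm x]
  have hsub : Icc x y ⊆ s := hs.out hx hy
  obtain ⟨c, hc, hcd⟩ := exists_hasDerivAt_eq_slope f f' hxy
    (fun z hz => (hd z (hsub hz)).continuousAt.continuousWithinAt)
    (fun z hz => hd z (hsub (Ioo_subset_Icc_self hz)))
  have h1 := hl c (hsub (Ioo_subset_Icc_self hc))
  rw [hcd, abs_div, div_le_iff₀ (abs_pos.2 (by linarith))] at h1
  rw [abs_sub_comm x y, abs_sub_comm (f x)]
  exact h1

/-- If at every point of `[a, b]` one of the first `n` derivatives is at least `V` and the first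
`n + 1` derivatives are at most `M`, then the set where the function is smaller than `dl` is
small. -/
theorem partition {F : ℕ → ℝ → ℝ} {a b V M dl : ℝ} {n : ℕ} (hn : 1 ≤ n) (hab : a ≤ b)
    (hd : ∀ i ≤ n, ∀ x ∈ Icc a b, HasDerivAt (F i) (F (i + 1) x) x) (hV : 0 < V)
    (low : ∀ x ∈ Icc a b, ∃ j, 1 ≤ j ∧ j ≤ n ∧ V ≤ |F j x|)
    (up : ∀ j, 1 ≤ j → j ≤ n + 1 → ∀ x ∈ Icc a b, |F j x| ≤ M) (hdl : 0 < dl) :
    volume {x ∈ Icc a b | |F 0 x| < dl} ≤
      ENNReal.ofReal (((b - a) * (2 * M / V) + 1) * 2 ^ (n + 1) *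
        (2 * dl / V) ^ ((1 : ℝ) / n)) := by
  have hVM : V ≤ M := by
    obtain ⟨j, h1, h2, h3⟩ := low a ⟨le_rfl, hab⟩
    exact h3.trans (up j h1 (by omega) a ⟨le_rfl, hab⟩)
  have hM : 0 < M := hV.trans_le hVM
  set h : ℝ := V / (2 * M) with hh
  have hh0 : 0 < h := by positivity
  have hh1 : h ≤ 1 / 2 := by
    rw [hh, div_le_div_iff₀ (by positivity) (by norm_num)]
    linarith
  set q : ℝ := 2 * dl / V with hq
  have hq0 : 0 < q := by positivity
  set B : ℝ := 2 ^ (n + 1) * q ^ ((1 : ℝ) / n) with hB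
  have hB0 : 0 ≤ B := by positivity
  set s : ℕ → Set ℝ := fun i => Icc a b ∩ Icc (a + i * h) (a + (i + 1) * h) with hs
  set m : ℕ := ⌊(b - a) / h⌋₊ + 1 with hm
  have hcov : {x ∈ Icc a b | |F 0 x| < dl} ⊆
      ⋃ i ∈ Finset.range m, {x ∈ s i | |F 0 x| < dl} := by
    intro x hx
    have hx1 : 0 ≤ (x - a) / h := div_nonneg (by linarith [hx.1.1]) hh0.le
    simp only [mem_iUnion, Finset.mem_range]
    refine ⟨⌊(x - a) / h⌋₊, ?_, ⟨hx.1, ?_, ?_⟩, hx.2⟩
    · have : ⌊(x - a) / h⌋₊ ≤ ⌊(b - a) / h⌋₊ := by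
        apply Nat.floor_le_floor
        have := hx.1.2
        gcongr
      omega
    · have h1 := Nat.floor_le hx1
      rw [le_div_iff₀ hh0] at h1
      linarith
    · have h1 := (Nat.lt_floor_add_one ((x - a) / h)).le
      rw [div_le_iff₀ hh0] at h1
      linarith
  have hpiece : ∀ i, volume {x ∈ s i | |F 0 x| < dl} ≤ ENNReal.ofReal B := by
    intro i
    have hso : (s i).OrdConnected := ordConnected_Icc.inter ordConnected_Icc
    have hsd : ∀ x ∈ s i, ∀ y ∈ s i, |x - y| ≤ h := by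
      intro x hx y hy
      have h1 := hx.2.1
      have h2 := hx.2.2
      have h3 := hy.2.1
      have h4 := hy.2.2
      rw [abs_le]
      constructor <;> linarith
    rcases le_or_gt q 1 with hq1 | hq1
    · rcases (s i).eq_empty_or_nonempty with he | ⟨c, hc⟩
      · have : {x ∈ s i | |F 0 x| < dl} = ∅ := by
          rw [he]; ext x; simp
        rw [this]
        simp
      obtain ⟨j, hj1, hj2, hj3⟩ := low c hc.1
      obtain ⟨k, rfl⟩ : ∃ k, j = k + 1 := ⟨j - 1, by omega⟩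
      have hlow : ∀ x ∈ s i, V / 2 ≤ |F (k + 1) x| := by
        intro x hx
        have h1 := mvt_upper hso (f := F (k + 1)) (f' := F (k + 1 + 1))
          (fun y hy => hd (k + 1) hj2 y hy.1) (M := M)
          (fun y hy => up (k + 1 + 1) (by omega) (by omega) y hy.1) hc hx
        have h2 : M * |c - x| ≤ V / 2 := by
          calc M * |c - x| ≤ M * h := by gcongr; exact hsd c hc x hx
            _ = V / 2 := by rw [hh]; field_simp
        have h3 := abs_sub_abs_le_abs_sub (F (k + 1) c) (F (k + 1) x)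
        linarith
      refine (sublevel hso k (fun i' hi x hx => hd i' (by omega) x hx.1) (lam := V / 2)
        (by positivity) hlow hdl).trans (ENNReal.ofReal_le_ofReal ?_)
      have e1 : dl / (V / 2) = q := by rw [hq]; field_simp
      rw [e1, hB]
      have e2 : q ^ ((1 : ℝ) / (k + 1 : ℕ)) ≤ q ^ ((1 : ℝ) / n) := by
        apply Real.rpow_le_rpow_of_exponent_ge hq0 hq1
        have : ((k + 1 : ℕ) : ℝ) ≤ n := by exact_mod_cast hj2
        gcongr
      have e3 : (2 : ℝ) ^ (k + 2) - 2 ≤ 2 ^ (n + 1) := by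
        have : (2 : ℝ) ^ (k + 2) ≤ 2 ^ (n + 1) := pow_le_pow_right₀ (by norm_num) (by omega)
        linarith
      calc ((2 : ℝ) ^ (k + 2) - 2) * q ^ ((1 : ℝ) / (k + 1 : ℕ))
          ≤ 2 ^ (n + 1) * q ^ ((1 : ℝ) / (k + 1 : ℕ)) := by gcongr
        _ ≤ 2 ^ (n + 1) * q ^ ((1 : ℝ) / n) := by gcongr
    · refine (measure_mono (fun x hx => hx.1)).trans
        ((volume_le_of_dist hsd).trans (ENNReal.ofReal_le_ofReal ?_))
      have e1 : 1 ≤ q ^ ((1 : ℝ) / n) := Real.one_le_rpow hq1.le (by positivity)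
      have e2 : (1 : ℝ) ≤ 2 ^ (n + 1) := one_le_pow₀ (by norm_num)
      calc h ≤ 1 * 1 := by linarith
        _ ≤ B := by rw [hB]; gcongr
  have hmle : (m : ℝ) ≤ (b - a) * (2 * M / V) + 1 := by
    have h1 : (⌊(b - a) / h⌋₊ : ℝ) ≤ (b - a) / h :=
      Nat.floor_le (div_nonneg (by linarith) hh0.le)
    have h2 : (b - a) / h = (b - a) * (2 * M / V) := by rw [hh]; field_simp
    rw [hm, Nat.cast_add, Nat.cast_one]
    linarith
  calc volume {x ∈ Icc a b | |F 0 x| < dl}
      ≤ volume (⋃ i ∈ Finset.range m, {x ∈ s i | |F 0 x| < dl}) := measure_mono hcov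
    _ ≤ ∑ i ∈ Finset.range m, volume {x ∈ s i | |F 0 x| < dl} := measure_biUnion_finset_le _ _
    _ ≤ ∑ _i ∈ Finset.range m, ENNReal.ofReal B := Finset.sum_le_sum fun i _ => hpiece i
    _ = ENNReal.ofReal (m * B) := by
        rw [Finset.sum_const, Finset.card_range, nsmul_eq_mul,
          ENNReal.ofReal_mul (Nat.cast_nonneg m), ENNReal.ofReal_natCast]
    _ ≤ _ := by
        apply ENNReal.ofReal_le_ofReal
        rw [mul_assoc]
        exact mul_le_mul_of_nonneg_right hmle hB0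

end Vale.Agent.P139.R2S
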